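import Vale.Agent.Lib.P074L.Defs

open MeasureTheory Set
open scoped ENNReal NNReal RealInnerProductSpace

namespace Vale.Agent.Lib.P074L

noncomputable section

open Classical in
/-- the map with value `b` on `A` and `a` off `A` -/
def twoMap {d : ℕ} (A : Set (E d)) (a b : E d) : E d → E d := fun x => if x ∈ A then b else a

theorem measurable_twoMap {d : ℕ} {A : Set (E d)} (hA : MeasurableSet A) (a b : E d) :
    Measurable (twoMap A a b) := by
  unfold twoMap
  exact Measurable.ite hA measurable_const measurable_const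

theorem measurableSet_halfspace {d : ℕ} (v : E d) (c : ℝ) :
    MeasurableSet {x : E d | c ≤ ⟪x, v⟫} :=
  measurableSet_le measurable_const (by fun_prop)

theorem norm_sub_sq_diff {d : ℕ} (x a b : E d) :
    ‖x - a‖ ^ 2 - ‖x - b‖ ^ 2 = 2 * ⟪x, b - a⟫ - ‖b‖ ^ 2 + ‖a‖ ^ 2 := by
  rw [norm_sub_sq_real, norm_sub_sq_real, inner_sub_right]
  ring

theorem ofReal_aux (u v h : ℝ) (hu : 0 ≤ u) (hv : 0 ≤ v) (H : u + h ≤ v) :
    ENNReal.ofReal u + ENNReal.ofReal h ≤ ENNReal.ofReal v + ENNReal.ofReal (-h) := by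
  rcases le_total 0 h with hh | hh
  · rw [← ENNReal.ofReal_add hu hh]
    exact (ENNReal.ofReal_le_ofReal H).trans le_self_add
  · rw [ENNReal.ofReal_of_nonpos hh, add_zero, ← ENNReal.ofReal_add hv (by linarith)]
    exact ENNReal.ofReal_le_ofReal (by linarith)

theorem isOptMap_twoMap {d : ℕ} (ρ : Measure (E d)) [IsFiniteMeasure ρ] (a b : E d) (c : ℝ) :
    IsOptMap ρ (ρ.map (twoMap {x : E d | c ≤ ⟪x, b - a⟫} a b))
      (twoMap {x : E d | c ≤ ⟪x, b - a⟫} a b) := by
  classical
  set A : Set (E d) := {x : E d | c ≤ ⟪x, b - a⟫} with hA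
  have mA : MeasurableSet A := measurableSet_halfspace _ _
  set T := twoMap A a b with hT
  have mT : Measurable T := measurable_twoMap mA a b
  refine ⟨mT, rfl, fun T' mT' hT' => ?_⟩
  set h0 : ℝ := 2 * c - ‖b‖ ^ 2 + ‖a‖ ^ 2 with hh0
  set ψ : E d → ℝ≥0∞ := fun y => if y = b then ENNReal.ofReal h0 else ENNReal.ofReal (-h0) with hψ
  have mψ : Measurable ψ :=
    Measurable.ite (measurableSet_singleton b) measurable_const measurable_const
  -- pointwise optimality
  have hpt : ∀ x y, (y = a ∨ y = b) →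
      ENNReal.ofReal (‖x - T x‖ ^ 2) + ψ (T x) ≤ ENNReal.ofReal (‖x - y‖ ^ 2) + ψ y := by
    intro x y hy
    have hdiff := norm_sub_sq_diff x a b
    by_cases hab : a = b
    · have hTx : T x = b := by
        simp only [hT, twoMap, hab, ite_self]
      have hyb : y = b := by rcases hy with h | h <;> simp [h, hab]
      rw [hTx, hyb]
    by_cases hx : x ∈ A
    · have hTx : T x = b := by simp only [hT, twoMap, hx, if_true]
      rw [hTx]
      rcases hy with h | h
      · have hx' : c ≤ ⟪x, b - a⟫ := hx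
        rw [h]
        simp only [hψ, if_true, hab, if_false]
        exact ofReal_aux _ _ _ (by positivity) (by positivity) (by rw [hh0]; linarith)
      · rw [h]
    · have hTx : T x = a := by simp only [hT, twoMap, hx, if_false]
      rw [hTx]
      rcases hy with h | h
      · rw [h]
      · have hx' : ⟪x, b - a⟫ < c := not_le.mp hx
        rw [h]
        simp only [hψ, if_true, hab, if_false]
        have := ofReal_aux (‖x - a‖ ^ 2) (‖x - b‖ ^ 2) (-h0) (by positivity) (by positivity)
          (by rw [hh0]; linarith)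
        rwa [neg_neg] at this
  -- T' takes values in {a,b} almost everywhere
  have hae : ∀ᵐ x ∂ρ, T' x = a ∨ T' x = b := by
    have hms : MeasurableSet ({a, b} : Set (E d))ᶜ :=
      ((measurableSet_singleton b).insert a).compl
    have h1 : (ρ.map T) ({a, b} : Set (E d))ᶜ = 0 := by
      rw [Measure.map_apply mT hms]
      have : T ⁻¹' ({a, b} : Set (E d))ᶜ = ∅ := by
        ext x
        simp only [mem_preimage, mem_compl_iff, mem_insert_iff, mem_singleton_iff,
          mem_empty_iff_false, iff_false, not_not]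
        by_cases hx : x ∈ A
        · right; simp only [hT, twoMap, hx, if_true]
        · left; simp only [hT, twoMap, hx, if_false]
      rw [this, measure_empty]
    rw [← hT', Measure.map_apply mT' hms] at h1
    rw [ae_iff]
    have hset : {x | ¬ (T' x = a ∨ T' x = b)} = T' ⁻¹' ({a, b} : Set (E d))ᶜ := by
      ext x
      simp only [mem_setOf_eq, mem_preimage, mem_compl_iff, mem_insert_iff, mem_singleton_iff]
    rw [hset]; exact h1
  have hint : ∫⁻ x, (ENNReal.ofReal (‖x - T x‖ ^ 2) + ψ (T x)) ∂ρ ≤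
      ∫⁻ x, (ENNReal.ofReal (‖x - T' x‖ ^ 2) + ψ (T' x)) ∂ρ :=
    lintegral_mono_ae (hae.mono (fun x hx => hpt x (T' x) hx))
  have mψT : Measurable (fun x => ψ (T x)) := mψ.comp mT
  have mψT' : Measurable (fun x => ψ (T' x)) := mψ.comp mT'
  rw [lintegral_add_right _ mψT, lintegral_add_right _ mψT'] at hint
  have hψeq : ∫⁻ x, ψ (T' x) ∂ρ = ∫⁻ x, ψ (T x) ∂ρ := by
    rw [← lintegral_map mψ mT', ← lintegral_map mψ mT, hT']
  have hfin : ∫⁻ x, ψ (T x) ∂ρ ≠ ⊤ := by
    have hle : ∀ x, ψ (T x) ≤ ENNReal.ofReal |h0| := by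
      intro x
      simp only [hψ]
      split_ifs
      · exact ENNReal.ofReal_le_ofReal (le_abs_self _)
      · exact ENNReal.ofReal_le_ofReal (neg_le_abs _)
    refine ne_top_of_le_ne_top ?_ (lintegral_mono hle)
    rw [lintegral_const]
    exact ENNReal.mul_ne_top ENNReal.ofReal_ne_top (measure_ne_top _ _)
  rw [hψeq] at hint
  exact (ENNReal.add_le_add_iff_right hfin).1 hint

end

end Vale.Agent.Lib.P074L
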