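import Vale.Agent.Lib.P074L.Defs

open MeasureTheory Set
open scoped ENNReal NNReal RealInnerProductSpace

namespace Vale.Agent.Lib.P074L

noncomputable section

/-- the unit cube -/
def cube (d : ℕ) : Set (E d) := {x | ∀ i, 0 ≤ x i ∧ x i ≤ 1}

/-- boxes -/
def box {d : ℕ} (l u : Fin d → ℝ) : Set (E d) := {x | ∀ i, l i ≤ x i ∧ x i ≤ u i}

/-- reflection of coordinate `i0` in the cube -/
def refl {d : ℕ} (i0 : Fin d) : E d → E d :=
  fun x => WithLp.toLp 2 (fun i => if i = i0 then 1 - x i else x i)

theorem box_eq_preimage {d : ℕ} (l u : Fin d → ℝ) :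
    box l u = (WithLp.ofLp : E d → (Fin d → ℝ)) ⁻¹' (Set.Icc l u) := by
  ext x
  simp only [box, mem_ofPred_eq, mem_preimage, mem_Icc, Pi.le_def]
  exact forall_and

theorem cube_eq_box (d : ℕ) : cube d = box (fun _ => 0) (fun _ => 1) := rfl

theorem box_compact {d : ℕ} (l u : Fin d → ℝ) : IsCompact (box l u) := by
  rw [box_eq_preimage]
  have h : IsCompact (Set.Icc l u) := isCompact_Icc
  have := (PiLp.homeomorph 2 (fun _ : Fin d => ℝ)).isCompact_preimage.2 h
  exact this

theorem cube_compact (d : ℕ) : IsCompact (cube d) := box_compact _ _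

theorem cube_convex (d : ℕ) : Convex ℝ (cube d) := by
  intro x hx y hy a b ha hb hab i
  have hx1 := hx i
  have hy1 := hy i
  simp only [PiLp.add_apply, PiLp.smul_apply, smul_eq_mul]
  constructor
  · have := mul_nonneg ha hx1.1
    have := mul_nonneg hb hy1.1
    linarith
  · have h1 : a * x i ≤ a * 1 := mul_le_mul_of_nonneg_left hx1.2 ha
    have h2 : b * y i ≤ b * 1 := mul_le_mul_of_nonneg_left hy1.2 hb
    linarith

theorem cube_interior (d : ℕ) : (interior (cube d)).Nonempty := by
  refine ⟨WithLp.toLp 2 (fun _ => (1 / 2 : ℝ)), ?_⟩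
  rw [mem_interior]
  refine ⟨(WithLp.ofLp : E d → (Fin d → ℝ)) ⁻¹' (Set.pi univ (fun _ => Set.Ioo (0 : ℝ) 1)), ?_, ?_, ?_⟩
  · intro x hx i
    have := hx i (mem_univ i)
    exact ⟨this.1.le, this.2.le⟩
  · exact (isOpen_set_pi finite_univ (fun _ _ => isOpen_Ioo)).preimage
      (PiLp.homeomorph 2 (fun _ : Fin d => ℝ)).continuous
  · intro i _
    simp only [mem_Ioo]
    norm_num

theorem measurableSet_box {d : ℕ} (l u : Fin d → ℝ) : MeasurableSet (box l u) :=
  (box_compact l u).isClosed.measurableSet

theorem volume_box {d : ℕ} (l u : Fin d → ℝ) :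
    volume (box l u) = ∏ i, ENNReal.ofReal (u i - l i) := by
  rw [box_eq_preimage, (PiLp.volume_preserving_ofLp (Fin d)).measure_preimage
    measurableSet_Icc.nullMeasurableSet, Real.volume_Icc_pi]

theorem volume_cube (d : ℕ) : volume (cube d) = 1 := by
  rw [cube_eq_box, volume_box]
  simp

theorem unif_cube (d : ℕ) : unif (cube d) = volume.restrict (cube d) := by
  simp [unif, volume_cube]

theorem measurable_refl {d : ℕ} (i0 : Fin d) : Measurable (refl i0) := by
  have hc : Continuous (refl i0) := by
    unfold refl
    refine (PiLp.homeomorph 2 (fun _ : Fin d => ℝ)).symm.continuous.comp ?_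
    refine continuous_pi fun i => ?_
    by_cases h : i = i0
    · simp only [h, if_true]
      exact continuous_const.sub
        ((continuous_apply i0).comp (PiLp.homeomorph 2 (fun _ : Fin d => ℝ)).continuous)
    · simp only [h, if_false]
      exact (continuous_apply i).comp (PiLp.homeomorph 2 (fun _ : Fin d => ℝ)).continuous
  exact hc.measurable

/-- the reflection on the plain product space -/
def reflPi {d : ℕ} (i0 : Fin d) : (Fin d → ℝ) → (Fin d → ℝ) :=
  fun x i => if i = i0 then 1 - x i else x i

theorem measurePreserving_reflPi {d : ℕ} (i0 : Fin d) :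
    MeasurePreserving (reflPi i0) (volume : Measure (Fin d → ℝ)) volume := by
  have h : ∀ i : Fin d, MeasurePreserving (fun t : ℝ => if i = i0 then 1 - t else t)
      (volume : Measure ℝ) volume := by
    intro i
    by_cases hi : i = i0
    · simp only [hi, if_true]
      exact Measure.measurePreserving_sub_left volume 1
    · simp only [hi, if_false]
      exact MeasurePreserving.id _
  exact volume_preserving_pi h

theorem measurePreserving_refl {d : ℕ} (i0 : Fin d) :
    MeasurePreserving (refl i0) (volume : Measure (E d)) volume := by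
  have h := ((PiLp.volume_preserving_toLp (Fin d)).comp (measurePreserving_reflPi i0)).comp
    (PiLp.volume_preserving_ofLp (Fin d))
  exact h

theorem refl_preimage_cube {d : ℕ} (i0 : Fin d) : refl i0 ⁻¹' cube d = cube d := by
  ext x
  simp only [mem_preimage, cube, mem_ofPred_eq, refl]
  constructor
  · intro h i
    have := h i
    by_cases hi : i = i0
    · simp only [hi, if_true] at this
      subst hi
      constructor <;> linarith [this.1, this.2]
    · simpa only [hi, if_false] using this
  · intro h i
    have := h i
    by_cases hi : i = i0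
    · simp only [hi, if_true]
      subst hi
      constructor <;> linarith [this.1, this.2]
    · simpa only [hi, if_false] using this

theorem map_refl {d : ℕ} (i0 : Fin d) :
    (volume.restrict (cube d)).map (refl i0) = volume.restrict (cube d) := by
  have hm : MeasurableSet (cube d) := measurableSet_box (fun _ => 0) (fun _ => 1)
  have h := (measurePreserving_refl i0).restrict_preimage hm
  rw [refl_preimage_cube] at h
  exact h.map_eq

end

end Vale.Agent.Lib.P074L
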