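import Mathlib

open MeasureTheory Set
open scoped ENNReal NNReal

namespace Vale.Agent.Lib.P074L

noncomputable section

/-- Euclidean `d`-space. -/
abbrev E (d : ℕ) := EuclideanSpace ℝ (Fin d)

/-- The uniform probability measure on `K` (normalised Lebesgue measure restricted to `K`). -/
def unif {d : ℕ} (K : Set (E d)) : Measure (E d) := (volume K)⁻¹ • volume.restrict K

/-- Quadratic transport cost of a map `T` for the source `ρ`. -/
def cost {d : ℕ} (ρ : Measure (E d)) (T : E d → E d) : ℝ≥0∞ :=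
  ∫⁻ x, ENNReal.ofReal (‖x - T x‖ ^ 2) ∂ρ

/-- `T` is a quadratic optimal transport map from `ρ` to `μ`: a Borel map pushing `ρ` to `μ`
that minimises the quadratic cost among all such maps. -/
def IsOptMap {d : ℕ} (ρ μ : Measure (E d)) (T : E d → E d) : Prop :=
  Measurable T ∧ ρ.map T = μ ∧
    ∀ T' : E d → E d, Measurable T' → ρ.map T' = μ → cost ρ T ≤ cost ρ T'

/-- Squared quadratic Wasserstein distance: infimum over couplings. -/
def W2sq {d : ℕ} (μ ν : Measure (E d)) : ℝ≥0∞ :=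
  ⨅ π : {π : Measure (E d × E d) // π.map Prod.fst = μ ∧ π.map Prod.snd = ν},
    ∫⁻ p, ENNReal.ofReal (‖p.1 - p.2‖ ^ 2) ∂π.1

/-- Quadratic Wasserstein distance. -/
def W2 {d : ℕ} (μ ν : Measure (E d)) : ℝ≥0∞ := (W2sq μ ν) ^ (1 / 2 : ℝ)

/-- The `L²(ρ)` distance of two maps. -/
def L2dist {d : ℕ} (ρ : Measure (E d)) (T S : E d → E d) : ℝ≥0∞ :=
  (∫⁻ x, ENNReal.ofReal (‖T x - S x‖ ^ 2) ∂ρ) ^ (1 / 2 : ℝ)

/-- `α` is admissible in dimension `d`: for every compact convex `K` with nonempty interior and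
every nonempty compact `Y` there is a finite constant `C` with
`‖T_μ - T_ν‖_{L²(ρ)} ≤ C W₂(μ,ν)^α` for all probability measures `μ, ν` carried by `Y`, where
`ρ` is uniform on `K` and `T_μ, T_ν` are (any) optimal maps from `ρ` to `μ, ν`. -/
def Admissible (d : ℕ) (α : ℝ) : Prop :=
  ∀ K : Set (E d), IsCompact K → Convex ℝ K → (interior K).Nonempty →
  ∀ Y : Set (E d), IsCompact Y → Y.Nonempty →
  ∃ C : ℝ≥0, ∀ μ ν : Measure (E d), IsProbabilityMeasure μ → IsProbabilityMeasure ν →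
    (∀ᵐ y ∂μ, y ∈ Y) → (∀ᵐ y ∂ν, y ∈ Y) →
    ∀ T S : E d → E d, IsOptMap (unif K) μ T → IsOptMap (unif K) ν S →
      L2dist (unif K) T S ≤ C * (W2 μ ν) ^ α

end

end Vale.Agent.Lib.P074L
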