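import Vale.Agent.Lib.P074L.Key2

open MeasureTheory Set Filter Topology
open scoped ENNReal NNReal RealInnerProductSpace

namespace Vale.Agent.Lib.P074L

noncomputable section

theorem real_contra (C : ℝ) (hC : 0 ≤ C) (α : ℝ) (hα : 1 / 3 < α)
    (h : ∀ t : ℝ, 0 < t → t ≤ 1 → t / 4 ≤ C * (2 * t ^ 3) ^ α) : False := by
  set γ : ℝ := 3 * α - 1 with hγ
  have hγ0 : 0 < γ := by rw [hγ]; linarith
  have h2 : ∀ t : ℝ, 0 < t → t ≤ 1 → 1 / 4 ≤ C * (2 : ℝ) ^ α * t ^ γ := by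
    intro t ht ht1
    have h3 := h t ht ht1
    have e1 : (2 * t ^ 3) ^ α = (2 : ℝ) ^ α * (t * t ^ γ) := by
      rw [Real.mul_rpow (by norm_num) (by positivity), ← Real.rpow_natCast t 3,
        ← Real.rpow_mul ht.le]
      congr 1
      have : ((3 : ℕ) : ℝ) * α = 1 + γ := by rw [hγ]; push_cast; ring
      rw [this, Real.rpow_add ht, Real.rpow_one]
    rw [e1] at h3
    have h4 : t * (1 / 4) ≤ t * (C * (2 : ℝ) ^ α * t ^ γ) := by nlinarith
    exact le_of_mul_le_mul_left h4 ht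
  have hcont : Tendsto (fun t : ℝ => C * (2 : ℝ) ^ α * t ^ γ) (𝓝 0) (𝓝 (C * (2 : ℝ) ^ α * (0 : ℝ) ^ γ)) :=
    ((Real.continuousAt_rpow_const 0 γ (Or.inr hγ0.le)).tendsto).const_mul _
  rw [Real.zero_rpow hγ0.ne', mul_zero] at hcont
  have hev : ∀ᶠ t in 𝓝[>] (0 : ℝ), C * (2 : ℝ) ^ α * t ^ γ < 1 / 4 :=
    (hcont.mono_left nhdsWithin_le_nhds).eventually (gt_mem_nhds (by norm_num))
  have hev2 : ∀ᶠ t in 𝓝[>] (0 : ℝ), t ∈ Ioc (0 : ℝ) 1 := Ioc_mem_nhdsGT (by norm_num)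
  obtain ⟨t, ht1, ht2⟩ := (hev.and hev2).exists
  exact absurd (h2 t ht2.1 ht2.2) (not_le.mpr ht1)

theorem not_admissible (d : ℕ) (hd : 2 ≤ d) (α : ℝ) (hα : 1 / 3 < α) : ¬ Admissible d α := by
  intro hadm
  have hα0 : 0 ≤ α := by linarith
  obtain ⟨C, hC⟩ := hadm (cube d) (cube_compact d) (cube_convex d) (cube_interior d)
    (Metric.closedBall 0 2) (isCompact_closedBall 0 2) ⟨0, by simp⟩
  set i0 : Fin d := ⟨0, by omega⟩
  set i1 : Fin d := ⟨1, by omega⟩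
  have h01 : i0 ≠ i1 := by
    intro h; simpa [i0, i1] using congrArg Fin.val h
  refine real_contra C C.2 α hα (fun t ht ht1 => ?_)
  have hs0 : 0 < t ^ 2 := by positivity
  have hs1 : t ^ 2 ≤ 1 := by nlinarith
  obtain ⟨μ, ν, T, S, hμ, hν, hμY, hνY, hT, hS, hlow, hup⟩ := key i0 i1 h01 (t ^ 2) hs0 hs1
  have hmain := hC μ ν hμ hν (by rw [ae_iff]; exact hμY) (by rw [ae_iff]; exact hνY) T S hT hS
  have e1 : ENNReal.ofReal (t / 4) ≤ L2dist (unif (cube d)) T S := by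
    unfold L2dist
    have : ENNReal.ofReal (t / 4) = (ENNReal.ofReal (t ^ 2 / 16)) ^ (1 / 2 : ℝ) := by
      rw [ENNReal.ofReal_rpow_of_nonneg (by positivity) (by norm_num)]
      congr 1
      have : t ^ 2 / 16 = (t / 4) ^ 2 := by ring
      rw [this, ← Real.sqrt_eq_rpow, Real.sqrt_sq (by positivity)]
    rw [this]
    exact ENNReal.rpow_le_rpow hlow (by norm_num)
  have e2 : W2 μ ν ≤ ENNReal.ofReal (2 * t ^ 3) := by
    unfold W2
    have : ENNReal.ofReal (2 * t ^ 3) = (ENNReal.ofReal (4 * (t ^ 2) ^ 3)) ^ (1 / 2 : ℝ) := by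
      rw [ENNReal.ofReal_rpow_of_nonneg (by positivity) (by norm_num)]
      congr 1
      have : 4 * (t ^ 2) ^ 3 = (2 * t ^ 3) ^ 2 := by ring
      rw [this, ← Real.sqrt_eq_rpow, Real.sqrt_sq (by positivity)]
    rw [this]
    exact ENNReal.rpow_le_rpow hup (by norm_num)
  have e3 : ENNReal.ofReal (t / 4) ≤ ENNReal.ofReal ((C : ℝ) * (2 * t ^ 3) ^ α) := by
    refine (e1.trans hmain).trans ?_
    rw [ENNReal.ofReal_mul (NNReal.coe_nonneg C), ENNReal.ofReal_coe_nnreal,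
      ← ENNReal.ofReal_rpow_of_nonneg (by positivity) hα0]
    exact mul_le_mul' le_rfl (ENNReal.rpow_le_rpow e2 hα0)
  exact (ENNReal.ofReal_le_ofReal_iff (by positivity)).1 e3

end

end Vale.Agent.Lib.P074L
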