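import Vale.Agent.Lib.P074L.Main

open MeasureTheory Set
open scoped ENNReal NNReal RealInnerProductSpace

namespace Vale.Agent.Lib.P074L

noncomputable section

variable {d : ℕ}

theorem twoMap_mem {A : Set (E d)} {a b x : E d} (h : x ∈ A) : twoMap A a b x = b := by
  simp [twoMap, h]

theorem twoMap_not_mem {A : Set (E d)} {a b x : E d} (h : x ∉ A) : twoMap A a b x = a := by
  simp [twoMap, h]

theorem refl_apply_self (i0 : Fin d) (x : E d) : (refl i0 x) i0 = 1 - x i0 := by
  simp [refl]

theorem refl_apply_ne (i0 i : Fin d) (h : i ≠ i0) (x : E d) : (refl i0 x) i = x i := by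
  simp [refl, h]

instance : IsProbabilityMeasure (volume.restrict (cube d)) :=
  ⟨by rw [Measure.restrict_apply_univ, volume_cube]⟩

/-- mass of the thin cell is at most `s` -/
theorem mass_cell_le (i0 i1 : Fin d) (s : ℝ) (hs0 : 0 < s) (hs1 : s ≤ 1) :
    (volume.restrict (cube d)) {x : E d | 1 ≤ ⟪x, atom i0 i1 s - 0⟫} ≤ ENNReal.ofReal s := by
  rw [Measure.restrict_apply (measurableSet_halfspace _ _)]
  have hsub : {x : E d | 1 ≤ ⟪x, atom i0 i1 s - 0⟫} ∩ cube d ⊆
      box (fun i => if i = i1 then 1 - s else 0) (fun _ => 1) := by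
    intro x hx
    obtain ⟨h1, h2⟩ := hx
    simp only [mem_setOf_eq, inner_atom] at h1
    intro i
    refine ⟨?_, (h2 i).2⟩
    by_cases hi : i = i1
    · subst hi
      simp only [if_true]
      have := (h2 i0).2
      nlinarith
    · simp only [hi, if_false]
      exact (h2 i).1
  refine (measure_mono hsub).trans ?_
  rw [volume_box, Finset.prod_eq_single i1]
  · simp
  · intro j _ hj
    simp [hj]
  · intro h; exact absurd (Finset.mem_univ _) h

/-- a box of volume `s/16` inside the symmetric difference of the two cells -/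
theorem mass_box (i0 i1 : Fin d) (h01 : i0 ≠ i1) (s : ℝ) (hs0 : 0 < s) (hs1 : s ≤ 1) :
    (volume.restrict (cube d))
      (box (fun i => if i = i0 then 3 / 4 else if i = i1 then 1 - 3 * s / 4 else 0)
        (fun i => if i = i1 then 1 - s / 2 else 1)) = ENNReal.ofReal (s / 16) := by
  rw [Measure.restrict_apply (measurableSet_box _ _)]
  have hsub : box (fun i => if i = i0 then 3 / 4 else if i = i1 then 1 - 3 * s / 4 else 0)
        (fun i => if i = i1 then 1 - s / 2 else 1) ⊆ cube d := by
    intro x hx i
    have := hx i
    by_cases hi0 : i = i0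
    · have hi1 : i ≠ i1 := by rw [hi0]; exact h01
      simp only [hi0, hi1, if_true, if_false, h01] at this ⊢
      constructor <;> linarith [this.1, this.2]
    · by_cases hi1 : i = i1
      · simp only [hi0, hi1, if_true, if_false, h01.symm] at this ⊢
        constructor <;> linarith [this.1, this.2]
      · simp only [hi0, hi1, if_false] at this ⊢
        exact this
  rw [inter_eq_left.mpr hsub, volume_box, Finset.prod_eq_mul i0 i1 h01]
  · simp only [if_true, h01, h01.symm, if_false]
    rw [← ENNReal.ofReal_mul (by norm_num)]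
    congr 1; ring
  · intro j _ hj
    simp [hj.1, hj.2]
  · intro h; exact absurd (Finset.mem_univ _) h
  · intro h; exact absurd (Finset.mem_univ _) h

end

end Vale.Agent.Lib.P074L
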