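import Vale.Agent.Lib.P074L.Key

open MeasureTheory Set
open scoped ENNReal NNReal RealInnerProductSpace

namespace Vale.Agent.Lib.P074L

noncomputable section

variable {d : ℕ}

theorem map_twoMap_compl_ball (ρ : Measure (E d)) {A : Set (E d)} (hA : MeasurableSet A) (b : E d)
    (hb : ‖b‖ ≤ 2) : (ρ.map (twoMap A 0 b)) (Metric.closedBall 0 2)ᶜ = 0 := by
  rw [Measure.map_apply (measurable_twoMap hA 0 b) Metric.isClosed_closedBall.measurableSet.compl]
  have : twoMap A 0 b ⁻¹' (Metric.closedBall 0 2)ᶜ = ∅ := by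
    ext x
    simp only [mem_preimage, mem_compl_iff, Metric.mem_closedBall, dist_zero_right,
      mem_empty_iff_false, iff_false, not_not]
    by_cases hx : x ∈ A
    · rw [twoMap_mem hx]; exact hb
    · rw [twoMap_not_mem hx]; simp
  rw [this, measure_empty]

theorem key (i0 i1 : Fin d) (h01 : i0 ≠ i1) (s : ℝ) (hs0 : 0 < s) (hs1 : s ≤ 1) :
    ∃ μ ν : Measure (E d), ∃ T S : E d → E d, IsProbabilityMeasure μ ∧ IsProbabilityMeasure ν ∧
      μ (Metric.closedBall 0 2)ᶜ = 0 ∧ ν (Metric.closedBall 0 2)ᶜ = 0 ∧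
      IsOptMap (unif (cube d)) μ T ∧ IsOptMap (unif (cube d)) ν S ∧
      ENNReal.ofReal (s / 16) ≤ ∫⁻ x, ENNReal.ofReal (‖T x - S x‖ ^ 2) ∂(unif (cube d)) ∧
      W2sq μ ν ≤ ENNReal.ofReal (4 * s ^ 3) := by
  rw [unif_cube]
  set ρ : Measure (E d) := volume.restrict (cube d) with hρ
  set Ap : Set (E d) := {x : E d | 1 ≤ ⟪x, atom i0 i1 s - 0⟫} with hAp
  set Am : Set (E d) := {x : E d | 1 - s ≤ ⟪x, atom i0 i1 (-s) - 0⟫} with hAm
  have mAp : MeasurableSet Ap := measurableSet_halfspace _ _
  have mAm : MeasurableSet Am := measurableSet_halfspace _ _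
  set T := twoMap Ap 0 (atom i0 i1 s) with hT
  set S := twoMap Am 0 (atom i0 i1 (-s)) with hS
  set S' := twoMap Ap 0 (atom i0 i1 (-s)) with hS'
  have mT : Measurable T := measurable_twoMap mAp _ _
  have mS : Measurable S := measurable_twoMap mAm _ _
  have mS' : Measurable S' := measurable_twoMap mAp _ _
  have hmem : ∀ x, x ∈ Am ↔ refl i0 x ∈ Ap := by
    intro x
    simp only [hAm, hAp, mem_setOf_eq, inner_atom, refl_apply_self,
      refl_apply_ne i0 i1 h01.symm]
    constructor <;> intro h <;> nlinarith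
  have hSS' : S = S' ∘ refl i0 := by
    funext x
    by_cases hx : x ∈ Am
    · simp only [hS, hS', Function.comp, twoMap_mem hx, twoMap_mem ((hmem x).1 hx)]
    · have hx' : refl i0 x ∉ Ap := fun h => hx ((hmem x).2 h)
      simp only [hS, hS', Function.comp, twoMap_not_mem hx, twoMap_not_mem hx']
  have hν : ρ.map S = ρ.map S' := by
    rw [hSS', ← Measure.map_map mS' (measurable_refl i0), map_refl]
  have habs : |s| ≤ 1 := by rw [abs_of_pos hs0]; exact hs1
  have habs' : |-s| ≤ 1 := by rw [abs_neg]; exact habs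
  refine ⟨ρ.map T, ρ.map S, T, S, Measure.isProbabilityMeasure_map mT.aemeasurable,
    Measure.isProbabilityMeasure_map mS.aemeasurable,
    map_twoMap_compl_ball ρ mAp _ (norm_atom_le i0 i1 s habs),
    map_twoMap_compl_ball ρ mAm _ (norm_atom_le i0 i1 (-s) habs'),
    isOptMap_twoMap ρ 0 (atom i0 i1 s) 1, isOptMap_twoMap ρ 0 (atom i0 i1 (-s)) (1 - s), ?_, ?_⟩
  · -- lower bound
    set B : Set (E d) := box (fun i => if i = i0 then 3 / 4 else if i = i1 then 1 - 3 * s / 4 else 0)
        (fun i => if i = i1 then 1 - s / 2 else 1) with hB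
    have hBm : MeasurableSet B := measurableSet_box _ _
    have hBmass : ρ B = ENNReal.ofReal (s / 16) := mass_box i0 i1 h01 s hs0 hs1
    rw [← hBmass, ← lintegral_indicator_one hBm]
    refine lintegral_mono (fun x => ?_)
    by_cases hx : x ∈ B
    · rw [indicator_of_mem hx]
      have h0 := hx i0
      have h1 := hx i1
      simp only [if_true, h01, h01.symm, if_false] at h0 h1
      have hxp : x ∈ Ap := by
        simp only [hAp, mem_setOf_eq, inner_atom]
        nlinarith [h0.1, h1.1]
      have hxm : x ∉ Am := by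
        simp only [hAm, mem_setOf_eq, inner_atom, not_le]
        nlinarith [h0.1, h1.2]
      simp only [hT, hS, twoMap_mem hxp, twoMap_not_mem hxm, sub_zero, Pi.one_apply]
      rw [← ENNReal.ofReal_one]
      exact ENNReal.ofReal_le_ofReal (one_le_norm_atom_sq i0 i1 h01 s)
    · rw [indicator_of_notMem hx]; exact bot_le
  · -- upper bound on W2
    rw [hν]
    refine (W2sq_map_le' ρ mT mS').trans ?_
    have hle : ∀ x, ENNReal.ofReal (‖T x - S' x‖ ^ 2) ≤
        Ap.indicator (fun _ => ENNReal.ofReal (4 * s ^ 2)) x := by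
      intro x
      by_cases hx : x ∈ Ap
      · rw [indicator_of_mem hx]
        simp only [hT, hS', twoMap_mem hx, norm_atom_sub_sq]
        exact le_refl _
      · rw [indicator_of_notMem hx]
        simp only [hT, hS', twoMap_not_mem hx]
        simp
    refine (lintegral_mono hle).trans ?_
    rw [lintegral_indicator_const mAp]
    refine (mul_le_mul' le_rfl (mass_cell_le i0 i1 s hs0 hs1)).trans ?_
    rw [← ENNReal.ofReal_mul (by positivity)]
    apply le_of_eq; congr 1; ring

end

end Vale.Agent.Lib.P074L
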