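import Vale.Agent.Lib.P074L.Cube
import Vale.Agent.Lib.P074L.Bathtub

open MeasureTheory Set
open scoped ENNReal NNReal RealInnerProductSpace

namespace Vale.Agent.Lib.P074L

noncomputable section

theorem W2sq_map_le' {d : ℕ} (ρ : Measure (E d)) {T S : E d → E d} (hT : Measurable T)
    (hS : Measurable S) :
    W2sq (ρ.map T) (ρ.map S) ≤ ∫⁻ x, ENNReal.ofReal (‖T x - S x‖ ^ 2) ∂ρ := by
  unfold W2sq
  have hTS : Measurable (fun x => (T x, S x)) := hT.prodMk hS
  have h1 : (ρ.map (fun x => (T x, S x))).map Prod.fst = ρ.map T := by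
    rw [Measure.map_map measurable_fst hTS]; rfl
  have h2 : (ρ.map (fun x => (T x, S x))).map Prod.snd = ρ.map S := by
    rw [Measure.map_map measurable_snd hTS]; rfl
  refine (iInf_le _ ⟨ρ.map (fun x => (T x, S x)), h1, h2⟩).trans ?_
  rw [lintegral_map (by fun_prop) hTS]

variable {d : ℕ}

/-- the atom `(r, 1, 0, ...)` -/
def atom (i0 i1 : Fin d) (r : ℝ) : E d :=
  r • EuclideanSpace.single i0 (1 : ℝ) + EuclideanSpace.single i1 (1 : ℝ)

theorem inner_atom (i0 i1 : Fin d) (r : ℝ) (x : E d) :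
    ⟪x, atom i0 i1 r - 0⟫ = r * x i0 + x i1 := by
  simp [atom, inner_add_right, inner_smul_right, EuclideanSpace.inner_single_right]

theorem norm_atom_le (i0 i1 : Fin d) (r : ℝ) (hr : |r| ≤ 1) : ‖atom i0 i1 r‖ ≤ 2 := by
  unfold atom
  refine (norm_add_le _ _).trans ?_
  rw [norm_smul]
  simp only [EuclideanSpace.norm_single, norm_one, mul_one, Real.norm_eq_abs]
  linarith

theorem one_le_norm_atom_sq (i0 i1 : Fin d) (h : i0 ≠ i1) (r : ℝ) : 1 ≤ ‖atom i0 i1 r‖ ^ 2 := by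
  have h1 : ‖atom i0 i1 r‖ ^ 2 = ⟪atom i0 i1 r, atom i0 i1 r - 0⟫ := by
    rw [sub_zero, real_inner_self_eq_norm_sq]
  rw [h1, inner_atom]
  have e0 : (atom i0 i1 r) i0 = r := by simp [atom, h]
  have e1 : (atom i0 i1 r) i1 = 1 := by simp [atom, h.symm]
  rw [e0, e1]; nlinarith [sq_nonneg r]

theorem norm_atom_sub_sq (i0 i1 : Fin d) (r : ℝ) :
    ‖atom i0 i1 r - atom i0 i1 (-r)‖ ^ 2 = 4 * r ^ 2 := by
  have : atom i0 i1 r - atom i0 i1 (-r) = (2 * r) • EuclideanSpace.single i0 (1 : ℝ) := by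
    unfold atom; module
  rw [this, norm_smul]
  simp only [EuclideanSpace.norm_single, norm_one, mul_one, Real.norm_eq_abs, sq_abs]
  ring

end

end Vale.Agent.Lib.P074L
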